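import Vale.Agent.P021.R2.H332.RChk

set_option autoImplicit false
set_option linter.all false

open Polynomial

namespace Vale.Agent.P021.R2.H332

open Vale.Agent.P021.Det
open Vale.Agent.P021.R2

/-- all degrees are as claimed, and the exponent lists are not too long -/
def degOK (fs : List RFac) : List (List ℕ × ℤ) → List ℕ → Bool
  | [], [] => true
  | L :: l, d :: ds => decide (L.1.length ≤ fs.length) && (decide (degR fs L.1 = d) && degOK fs l ds)
  | _, _ => false

theorem degOK_get {fs : List RFac} : ∀ {lev : List (List ℕ × ℤ)} {ds : List ℕ},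
    degOK fs lev ds = true → lev.length = ds.length ∧ ∀ j < lev.length,
      lev.getD j ([], 0) ∈ lev ∧ (lev.getD j ([], 0)).1.length ≤ fs.length ∧
      degR fs (lev.getD j ([], 0)).1 = ds.getD j 0 := by
  intro lev
  induction lev with
  | nil =>
    intro ds h
    cases ds with
    | nil => exact ⟨rfl, fun j hj => absurd hj (by simp)⟩
    | cons d ds => simp [degOK] at h
  | cons L lev ih =>
    intro ds h
    cases ds with
    | nil => simp [degOK] at h
    | cons d ds =>
      simp only [degOK, Bool.and_eq_true, decide_eq_true_eq] at h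
      obtain ⟨h1, h2, h3⟩ := h
      obtain ⟨i1, i2⟩ := ih h3
      refine ⟨by simp [i1], fun j hj => ?_⟩
      cases j with
      | zero => exact ⟨by simp, by simpa using h1, by simpa using h2⟩
      | succ j =>
        obtain ⟨a1, a2, a3⟩ := i2 j (by simpa using hj)
        refine ⟨?_, by simpa using a2, by simpa using a3⟩
        rw [List.getD_cons_succ]
        exact List.mem_cons_of_mem _ a1

/-- twice the total, in units `log 2 / 2^20` -/
def totL : List ℕ → List (List ℕ × ℤ) → ℤ
  | d1 :: d2 :: ds, L1 :: L2 :: l =>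
    ((d2 : ℤ) - d1) * (L1.2 + L2.2) + totL (d2 :: ds) (L2 :: l)
  | _, _ => 0

theorem totL_eq : ∀ (ds : List ℕ) (lev : List (List ℕ × ℤ)), lev.length = ds.length →
    ∑ j ∈ Finset.range (lev.length - 1), (((ds.getD (j + 1) 0 : ℕ) : ℝ) - (ds.getD j 0 : ℕ)) *
      (((lev.getD j ([], 0)).2 : ℝ) * cu + ((lev.getD (j + 1) ([], 0)).2 : ℝ) * cu) / 2 =
    (totL ds lev : ℝ) / 2 * cu := by
  intro ds
  induction ds with
  | nil =>
    intro lev h
    have : lev = [] := List.eq_nil_of_length_eq_zero (by simpa using h)
    subst this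
    simp [totL]
  | cons d1 ds ih =>
    intro lev h
    cases lev with
    | nil => simp at h
    | cons L1 lev =>
      cases ds with
      | nil =>
        have : lev = [] := List.eq_nil_of_length_eq_zero (by simpa using h)
        subst this
        simp [totL]
      | cons d2 ds =>
        cases lev with
        | nil => simp at h
        | cons L2 lev =>
          have h2 := ih (L2 :: lev) (by simpa using h)
          have e : (L1 :: L2 :: lev).length - 1 = ((L2 :: lev).length - 1) + 1 := by simp
          rw [e, Finset.sum_range_succ']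
          simp only [List.getD_cons_succ, List.getD_cons_zero] at h2 ⊢
          rw [h2]
          simp only [totL]
          push_cast
          ring

/-- the certificate from checked data -/
noncomputable def mkCert (fs : List RFac) (lev : List (List ℕ × ℤ)) (ds : List ℕ)
    (K0 b f E N : ℕ) (ex : ℤ) (S T : Set ℂ) (hN : lev.length = N + 1)
    (hdeg : degOK fs lev ds = true) (h0 : ds.getD 0 0 = 0) (hK : ds.getD N 0 = K0)
    (hlt : ∀ j < N, ds.getD j 0 < ds.getD (j + 1) 0)
    (hS : ∀ s ∈ S, GoodR fs b f E lev 0 s) (hT : ∀ s ∈ T, GoodR fs b f E lev ex s) :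
    H636.Cert K0 (2 * b) (2 * f) (2 * E) N ((ex : ℝ) * cu) S T where
  F j := prodR fs (lev.getD j ([], 0)).1
  d j := ds.getD j 0
  L j := ((lev.getD j ([], 0)).2 : ℝ) * cu
  monic j _ := prodR_monic _ _
  deg j hj := by
    rw [prodR_natDegree]
    exact ((degOK_get hdeg).2 j (by omega)).2.2
  d_zero := h0
  d_last := hK
  d_lt := hlt
  path j hj s hs := by
    obtain ⟨h1, h2, _⟩ := (degOK_get hdeg).2 j (by omega)
    have h := hS s hs _ h1 h2
    simpa using h
  circ j hj s hs := by
    obtain ⟨h1, h2, _⟩ := (degOK_get hdeg).2 j (by omega)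
    have h := hT s hs _ h1 h2
    have e : ((lev.getD j ([], 0)).2 : ℝ) * cu + (ex : ℝ) * cu =
        (((lev.getD j ([], 0)).2 : ℝ) + ex) * cu := by ring
    rw [e]
    exact h

theorem mkCert_total (fs : List RFac) (lev : List (List ℕ × ℤ)) (ds : List ℕ)
    (K0 b f E N : ℕ) (ex : ℤ) (S T : Set ℂ) (hN : lev.length = N + 1)
    (hdeg : degOK fs lev ds = true) (h0 : ds.getD 0 0 = 0) (hK : ds.getD N 0 = K0)
    (hlt : ∀ j < N, ds.getD j 0 < ds.getD (j + 1) 0)
    (hS : ∀ s ∈ S, GoodR fs b f E lev 0 s) (hT : ∀ s ∈ T, GoodR fs b f E lev ex s) :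
    (mkCert fs lev ds K0 b f E N ex S T hN hdeg h0 hK hlt hS hT).total =
      (totL ds lev : ℝ) / 2 * cu := by
  rw [← totL_eq ds lev (degOK_get hdeg).1]
  unfold H636.Cert.total mkCert
  rw [hN, Nat.add_sub_cancel]

end Vale.Agent.P021.R2.H332
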