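import Vale.Agent.P021.R2.H636.Spec

set_option autoImplicit false
set_option linter.all false

open Polynomial Filter Topology

namespace Vale.Agent.P021.R2.H332

open Vale.Agent.P021.R2.H636

theorem wp_pow (b f n : ℕ) : Wp (b * n) (f * n) = Wp b f ^ n := by
  unfold Wp
  rw [mul_pow, ← pow_mul, ← pow_mul]

theorem Lam_eq_add (x x0 : ℝ) (E : ℕ) (F : ℝ[X]) :
    Lam x E F = Lam x0 E F + (x - x0) * Bet E F := by
  have h : Lam x E = Lam x0 E + (x - x0) • Bet E := by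
    refine Polynomial.lhom_ext' fun k => LinearMap.ext_ring ?_
    simp only [Lam, Bet, Polynomial.lsum_apply, LinearMap.comp_apply, LinearMap.add_apply,
      LinearMap.smul_apply, LinearMap.id_apply, smul_eq_mul, mom, Polynomial.sum_monomial_index,
      mul_zero, mul_one]
    ring
  rw [h]
  simp

/-- the estimate for one row polynomial -/
def Good (S T : Set ℂ) (w : ℝ) (b0 f0 E0 : ℕ) (C1 : ℝ) (n i : ℕ) (P : ℝ[X]) (l : ℝ) : Prop :=
  P.Monic ∧ P.natDegree = i ∧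
  (∀ s ∈ S, ‖aeval s P‖ ^ 2 * ‖aeval s (Wp (b0 * n) (f0 * n))‖ ≤
    C1 * Real.exp l * ‖s ^ 2 - 8‖ ^ (E0 * n)) ∧
  (∀ s ∈ T, ‖aeval s P‖ ^ 2 * ‖aeval s (Wp (b0 * n) (f0 * n))‖ ≤
    C1 * Real.exp (l + w * n) * ‖s ^ 2 - 8‖ ^ (E0 * n))

/-- pointwise estimate behind `Good` -/
theorem point (b0 f0 E0 n r e R : ℕ) (hr : r ≤ n) (he : e ≤ R) (B x y : ℝ) (hB : 1 ≤ B)
    (F G : ℝ[X]) (s : ℂ) (hs : ‖s‖ ≤ B)
    (hF : ‖aeval s F‖ ^ 2 * ‖aeval s (Wp b0 f0)‖ ≤ Real.exp x * ‖s ^ 2 - 8‖ ^ E0)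
    (hG : ‖aeval s G‖ ^ 2 * ‖aeval s (Wp b0 f0)‖ ≤ Real.exp y * ‖s ^ 2 - 8‖ ^ E0) :
    ‖aeval s (X ^ e * F ^ (n - r) * G ^ r)‖ ^ 2 * ‖aeval s (Wp (b0 * n) (f0 * n))‖ ≤
      B ^ (2 * R) * Real.exp (x * ((n - r : ℕ) : ℝ) + y * (r : ℝ)) * ‖s ^ 2 - 8‖ ^ (E0 * n) := by
  have e1 : ‖aeval s (X ^ e * F ^ (n - r) * G ^ r)‖ ^ 2 * ‖aeval s (Wp (b0 * n) (f0 * n))‖ =
      (‖s‖ ^ (2 * e)) * (‖aeval s F‖ ^ 2 * ‖aeval s (Wp b0 f0)‖) ^ (n - r) *
        (‖aeval s G‖ ^ 2 * ‖aeval s (Wp b0 f0)‖) ^ r := by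
    rw [wp_pow, map_pow, map_mul, map_mul, map_pow, map_pow, map_pow, aeval_X]
    simp only [norm_mul, norm_pow]
    have h3 : ‖aeval s (Wp b0 f0)‖ ^ n =
        ‖aeval s (Wp b0 f0)‖ ^ (n - r) * ‖aeval s (Wp b0 f0)‖ ^ r := by
      rw [← pow_add, Nat.sub_add_cancel hr]
    rw [h3]
    ring
  rw [e1]
  have h1 : (‖aeval s F‖ ^ 2 * ‖aeval s (Wp b0 f0)‖) ^ (n - r) ≤
      (Real.exp x * ‖s ^ 2 - 8‖ ^ E0) ^ (n - r) :=
    pow_le_pow_left₀ (by (clear * -; positivity)) hF _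
  have h2 : (‖aeval s G‖ ^ 2 * ‖aeval s (Wp b0 f0)‖) ^ r ≤
      (Real.exp y * ‖s ^ 2 - 8‖ ^ E0) ^ r :=
    pow_le_pow_left₀ (by (clear * -; positivity)) hG _
  have h3 : ‖s‖ ^ (2 * e) ≤ B ^ (2 * R) := by
    calc ‖s‖ ^ (2 * e) ≤ B ^ (2 * e) := pow_le_pow_left₀ (norm_nonneg _) hs _
      _ ≤ B ^ (2 * R) := pow_le_pow_right₀ hB (by omega)
  have e2 : Real.exp (x * ((n - r : ℕ) : ℝ) + y * (r : ℝ)) =
      Real.exp x ^ (n - r) * Real.exp y ^ r := by
    rw [Real.exp_add, ← Real.exp_nat_mul, ← Real.exp_nat_mul, mul_comm x, mul_comm y]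
  have e3 : ‖s ^ 2 - 8‖ ^ (E0 * n) = (‖s ^ 2 - 8‖ ^ E0) ^ (n - r) * (‖s ^ 2 - 8‖ ^ E0) ^ r := by
    rw [← pow_add, Nat.sub_add_cancel hr, pow_mul]
  calc ‖s‖ ^ (2 * e) * (‖aeval s F‖ ^ 2 * ‖aeval s (Wp b0 f0)‖) ^ (n - r) *
        (‖aeval s G‖ ^ 2 * ‖aeval s (Wp b0 f0)‖) ^ r
      ≤ B ^ (2 * R) * (Real.exp x * ‖s ^ 2 - 8‖ ^ E0) ^ (n - r) *
        (Real.exp y * ‖s ^ 2 - 8‖ ^ E0) ^ r := by (clear * - h3 h1 hB h2; gcongr)
    _ = _ := by
        rw [e2, e3, mul_pow, mul_pow]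
        ring

theorem block {S T : Set ℂ} {w : ℝ} (b0 f0 E0 n r e R : ℕ) (hr : r ≤ n) (he : e ≤ R)
    (B x y : ℝ) (hB : 1 ≤ B) (hBS : ∀ s ∈ S, ‖s‖ ≤ B) (hBT : ∀ s ∈ T, ‖s‖ ≤ B)
    (F G : ℝ[X]) (hFm : F.Monic) (hGm : G.Monic)
    (hFS : ∀ s ∈ S, ‖aeval s F‖ ^ 2 * ‖aeval s (Wp b0 f0)‖ ≤ Real.exp x * ‖s ^ 2 - 8‖ ^ E0)
    (hFT : ∀ s ∈ T, ‖aeval s F‖ ^ 2 * ‖aeval s (Wp b0 f0)‖ ≤
      Real.exp (x + w) * ‖s ^ 2 - 8‖ ^ E0)
    (hGS : ∀ s ∈ S, ‖aeval s G‖ ^ 2 * ‖aeval s (Wp b0 f0)‖ ≤ Real.exp y * ‖s ^ 2 - 8‖ ^ E0)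
    (hGT : ∀ s ∈ T, ‖aeval s G‖ ^ 2 * ‖aeval s (Wp b0 f0)‖ ≤
      Real.exp (y + w) * ‖s ^ 2 - 8‖ ^ E0) :
    Good S T w b0 f0 E0 (B ^ (2 * R)) n (e + F.natDegree * (n - r) + G.natDegree * r)
      (X ^ e * F ^ (n - r) * G ^ r) (x * ((n - r : ℕ) : ℝ) + y * (r : ℝ)) := by
  refine ⟨((monic_X_pow e).mul (hFm.pow _)).mul (hGm.pow _), ?_, ?_, ?_⟩
  · rw [Monic.natDegree_mul ((monic_X_pow e).mul (hFm.pow _)) (hGm.pow _),
      Monic.natDegree_mul (monic_X_pow e) (hFm.pow _), natDegree_X_pow, hFm.natDegree_pow,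
      hGm.natDegree_pow]
    ring
  · intro s hs
    exact point b0 f0 E0 n r e R hr he B x y hB F G s (hBS s hs) (hFS s hs) (hGS s hs)
  · intro s hs
    have h := point b0 f0 E0 n r e R hr he B (x + w) (y + w) hB F G s (hBT s hs)
      (hFT s hs) (hGT s hs)
    have e1 : (x + w) * ((n - r : ℕ) : ℝ) + (y + w) * (r : ℝ) =
        x * ((n - r : ℕ) : ℝ) + y * (r : ℝ) + w * n := by
      have : ((n - r : ℕ) : ℝ) = n - r := by rw [Nat.cast_sub hr]
      rw [this]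
      ring
    rwa [e1] at h

/-- existence of all row polynomials, by blocks -/
theorem blocks {K0 b0 f0 E0 N : ℕ} {w : ℝ} {S T : Set ℂ}
    (C : Cert K0 b0 f0 E0 N w S T) (B : ℝ) (hB : 1 ≤ B)
    (hBS : ∀ s ∈ S, ‖s‖ ≤ B) (hBT : ∀ s ∈ T, ‖s‖ ≤ B) (n R : ℕ) (hR : K0 ≤ R)
    (J : ℕ) (hJ : J ≤ N) :
    ∃ (P : ℕ → ℝ[X]) (l : ℕ → ℝ),
      (∀ i < C.d J * n, Good S T w b0 f0 E0 (B ^ (2 * R)) n i (P i) (l i)) ∧
      ∑ i ∈ Finset.range (C.d J * n), l i = ∑ j ∈ Finset.range J,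
        ((C.d (j + 1) : ℝ) - C.d j) *
          (C.L j * (n * (n + 1) / 2) + C.L (j + 1) * (n * (n - 1) / 2)) := by
  induction J with
  | zero =>
    refine ⟨fun _ => 0, fun _ => 0, ?_, ?_⟩
    · intro i hi
      rw [C.d_zero, zero_mul] at hi
      omega
    · rw [C.d_zero]
      simp only [zero_mul, Finset.range_zero, Finset.sum_const_zero, Finset.sum_empty]
  | succ J ih =>
    obtain ⟨P, l, hP, hl⟩ := ih (by omega)
    have hlt : C.d J < C.d (J + 1) := C.d_lt J (by omega)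
    set D : ℕ := C.d (J + 1) - C.d J with hDdef
    have hD : 0 < D := by omega
    have hDK : D ≤ K0 := by
      have hmono : ∀ k, J + 1 + k ≤ N → C.d (J + 1) ≤ C.d (J + 1 + k) := by
        intro k
        induction k with
        | zero => intro _; exact le_rfl
        | succ k ihk =>
          intro hk
          have := C.d_lt (J + 1 + k) (by omega)
          have h2 := ihk (by omega)
          rw [show J + 1 + (k + 1) = J + 1 + k + 1 by ring]
          omega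
      have := hmono (N - (J + 1)) (by omega)
      rw [show J + 1 + (N - (J + 1)) = N by omega, C.d_last] at this
      omega
    have hsplit : C.d (J + 1) * n = C.d J * n + D * n := by
      rw [← add_mul]
      congr 1
      omega
    refine ⟨fun i => if i < C.d J * n then P i else
        X ^ ((i - C.d J * n) % D) * C.F J ^ (n - (i - C.d J * n) / D) *
          C.F (J + 1) ^ ((i - C.d J * n) / D),
      fun i => if i < C.d J * n then l i else
        C.L J * ((n - (i - C.d J * n) / D : ℕ) : ℝ) +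
          C.L (J + 1) * (((i - C.d J * n) / D : ℕ) : ℝ), ?_, ?_⟩
    · intro i hi
      by_cases h : i < C.d J * n
      · simp only [h, if_true]
        exact hP i h
      · simp only [h, if_false]
        have hi2 : i - C.d J * n < D * n := by omega
        have hr : (i - C.d J * n) / D < n := Nat.div_lt_of_lt_mul hi2
        have he : (i - C.d J * n) % D < D := Nat.mod_lt _ hD
        have hb := block (S := S) (T := T) (w := w) b0 f0 E0 n ((i - C.d J * n) / D)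
          ((i - C.d J * n) % D) R hr.le (by omega) B (C.L J) (C.L (J + 1)) hB hBS hBT
          (C.F J) (C.F (J + 1)) (C.monic J (by omega)) (C.monic (J + 1) hJ)
          (C.path J (by omega)) (C.circ J (by omega)) (C.path (J + 1) hJ) (C.circ (J + 1) hJ)
        have e1 : (i - C.d J * n) % D + (C.F J).natDegree * (n - (i - C.d J * n) / D) +
            (C.F (J + 1)).natDegree * ((i - C.d J * n) / D) = i := by
          rw [C.deg J (by omega), C.deg (J + 1) hJ]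
          have h3 : C.d (J + 1) = C.d J + D := by omega
          rw [h3]
          have h4 := Nat.mod_add_div (i - C.d J * n) D
          have h5 : C.d J * (n - (i - C.d J * n) / D) + C.d J * ((i - C.d J * n) / D) =
              C.d J * n := by
            rw [← mul_add, Nat.sub_add_cancel hr.le]
          rw [add_mul]
          (clear * - h h4 h5; omega)
        rw [e1] at hb
        exact hb
    · rw [hsplit, Finset.sum_range_add, Finset.sum_range_succ, ← hl]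
      congr 1
      · apply Finset.sum_congr rfl
        intro i hi
        rw [if_pos (Finset.mem_range.1 hi)]
      · have h6 : ∀ t ∈ Finset.range (D * n),
            (if C.d J * n + t < C.d J * n then l (C.d J * n + t) else
              C.L J * ((n - (C.d J * n + t - C.d J * n) / D : ℕ) : ℝ) +
              C.L (J + 1) * (((C.d J * n + t - C.d J * n) / D : ℕ) : ℝ)) =
            (fun r : ℕ => C.L J * ((n - r : ℕ) : ℝ) + C.L (J + 1) * (r : ℝ)) (t / D) := by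
          intro t _
          rw [if_neg (by omega), Nat.add_sub_cancel_left]
        rw [Finset.sum_congr rfl h6, Det.AU_sum_div D n hD
          (fun r : ℕ => C.L J * ((n - r : ℕ) : ℝ) + C.L (J + 1) * (r : ℝ)), Det.AU_sum_lin]
        congr 1
        rw [hDdef, Nat.cast_sub hlt.le]

/-- all row polynomials -/
theorem rows {K0 b0 f0 E0 N : ℕ} {w : ℝ} {S T : Set ℂ}
    (C : Cert K0 b0 f0 E0 N w S T) (B : ℝ) (hB : 1 ≤ B)
    (hBS : ∀ s ∈ S, ‖s‖ ≤ B) (hBT : ∀ s ∈ T, ‖s‖ ≤ B) (n κ : ℕ) (hκ : κ ≤ 2) :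
    ∃ (P : ℕ → ℝ[X]) (l : ℕ → ℝ),
      (∀ i < K0 * n + κ, Good S T w b0 f0 E0 (B ^ (2 * (K0 + 2))) n i (P i) (l i)) ∧
      ∑ i ∈ Finset.range (K0 * n + κ), l i = ∑ j ∈ Finset.range N,
        ((C.d (j + 1) : ℝ) - C.d j) *
          (C.L j * (n * (n + 1) / 2) + C.L (j + 1) * (n * (n - 1) / 2)) +
        κ * (C.L N * n) := by
  obtain ⟨P, l, hP, hl⟩ := blocks C B hB hBS hBT n (K0 + 2) (by omega) N le_rfl
  rw [C.d_last] at hP hl
  refine ⟨fun i => if i < K0 * n then P i else X ^ (i - K0 * n) * C.F N ^ (n - 0) * C.F N ^ 0,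
    fun i => if i < K0 * n then l i else C.L N * ((n - 0 : ℕ) : ℝ) + C.L N * ((0 : ℕ) : ℝ),
    ?_, ?_⟩
  · intro i hi
    by_cases h : i < K0 * n
    · simp only [h, if_true]
      exact hP i h
    · simp only [h, if_false]
      have hb := block (S := S) (T := T) (w := w) b0 f0 E0 n 0 (i - K0 * n) (K0 + 2)
        (Nat.zero_le _) (by omega) B (C.L N) (C.L N) hB hBS hBT
        (C.F N) (C.F N) (C.monic N le_rfl) (C.monic N le_rfl)
        (C.path N le_rfl) (C.circ N le_rfl) (C.path N le_rfl) (C.circ N le_rfl)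
      have e1 : (i - K0 * n) + (C.F N).natDegree * (n - 0) + (C.F N).natDegree * 0 = i := by
        rw [C.deg N le_rfl, C.d_last, mul_zero, add_zero, Nat.sub_zero]
        omega
      rw [e1] at hb
      exact hb
  · rw [Finset.sum_range_add, ← hl]
    congr 1
    · apply Finset.sum_congr rfl
      intro i hi
      rw [if_pos (Finset.mem_range.1 hi)]
    · rw [Finset.sum_congr rfl (g := fun _ => C.L N * n), Finset.sum_const, Finset.card_range,
        nsmul_eq_mul]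
      intro t _
      rw [if_neg (by omega), Nat.sub_zero]
      simp

/-- from the squared estimates of two rows to the entry estimate -/
theorem entry (P Q W : ℝ[X]) (s : ℂ) (c x y z t : ℝ) (hc : 0 ≤ c) (ht : 0 ≤ t)
    (hP : ‖aeval s P‖ ^ 2 * ‖aeval s W‖ ≤ c * Real.exp (x + z) * t)
    (hQ : ‖aeval s Q‖ ^ 2 * ‖aeval s W‖ ≤ c * Real.exp (y + z) * t) :
    ‖aeval s (P * Q * W)‖ ≤ c * (Real.exp z * (Real.exp (x / 2) * Real.exp (y / 2))) * t := by
  rw [map_mul, map_mul, norm_mul, norm_mul]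
  have h0 : 0 ≤ c * (Real.exp z * (Real.exp (x / 2) * Real.exp (y / 2))) * t := by positivity
  apply le_of_sq_le_sq _ h0
  have e1 : (‖aeval s P‖ * ‖aeval s Q‖ * ‖aeval s W‖) ^ 2 =
      (‖aeval s P‖ ^ 2 * ‖aeval s W‖) * (‖aeval s Q‖ ^ 2 * ‖aeval s W‖) := by ring
  have e2 : (c * (Real.exp z * (Real.exp (x / 2) * Real.exp (y / 2))) * t) ^ 2 =
      (c * Real.exp (x + z) * t) * (c * Real.exp (y + z) * t) := by
    have h1 : Real.exp (x / 2) * Real.exp (x / 2) = Real.exp x := by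
      rw [← Real.exp_add]; congr 1; ring
    have h2 : Real.exp (y / 2) * Real.exp (y / 2) = Real.exp y := by
      rw [← Real.exp_add]; congr 1; ring
    rw [Real.exp_add, Real.exp_add, ← h1, ← h2]
    ring
  rw [e1, e2]
  exact mul_le_mul hP hQ (by (clear * -; positivity)) (by (clear * - hc ht; positivity))

/-- the entry estimate for `Lam x` -/
theorem lam_est (S T : Set ℂ) (w cL cB C1 C2 : ℝ) (b0 f0 E0 n : ℕ) (hC1 : 0 ≤ C1)
    (hcB : 0 ≤ cB) (hC2 : cL * C1 + cB * C1 ≤ C2)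
    (hLam : ∀ (m : ℕ) (F : ℝ[X]) (M : ℝ),
      (∀ s ∈ S, ‖aeval s F‖ ≤ M * ‖s ^ 2 - 8‖ ^ m) → |Lam Real.pi m F| ≤ cL * M)
    (hBet : ∀ (m : ℕ) (F : ℝ[X]) (M : ℝ),
      (∀ s ∈ T, ‖aeval s F‖ ≤ M * ‖s ^ 2 - 8‖ ^ m) → |Bet m F| ≤ cB * M)
    (P Q : ℝ[X]) (i j : ℕ) (li lj x : ℝ)
    (hP : Good S T w b0 f0 E0 C1 n i P li) (hQ : Good S T w b0 f0 E0 C1 n j Q lj)
    (hx : |x - Real.pi| ≤ Real.exp (-w * n)) :
    |Lam x (E0 * n) (P * Q * Wp (b0 * n) (f0 * n))| ≤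
      C2 * (Real.exp (li / 2) * Real.exp (lj / 2)) := by
  obtain ⟨-, -, hiS, hiT⟩ := hP
  obtain ⟨-, -, hjS, hjT⟩ := hQ
  rw [Lam_eq_add x Real.pi]
  have h1 : |Lam Real.pi (E0 * n) (P * Q * Wp (b0 * n) (f0 * n))| ≤
      cL * (C1 * (Real.exp 0 * (Real.exp (li / 2) * Real.exp (lj / 2)))) := by
    apply hLam
    intro s hs
    refine (entry P Q _ s C1 li lj 0 (‖s ^ 2 - 8‖ ^ (E0 * n)) hC1
      (by (clear * -; positivity)) ?_ ?_)
    · rw [add_zero]; exact hiS s hs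
    · rw [add_zero]; exact hjS s hs
  have h2 : |Bet (E0 * n) (P * Q * Wp (b0 * n) (f0 * n))| ≤
      cB * (C1 * (Real.exp (w * n) * (Real.exp (li / 2) * Real.exp (lj / 2)))) := by
    apply hBet
    intro s hs
    exact entry P Q _ s C1 li lj (w * n) (‖s ^ 2 - 8‖ ^ (E0 * n)) hC1
      (by (clear * -; positivity)) (hiT s hs) (hjT s hs)
  have h3 : |x - Real.pi| * |Bet (E0 * n) (P * Q * Wp (b0 * n) (f0 * n))| ≤
      Real.exp (-w * n) *
      (cB * (C1 * (Real.exp (w * n) * (Real.exp (li / 2) * Real.exp (lj / 2))))) :=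
    mul_le_mul hx h2 (abs_nonneg _) (Real.exp_nonneg _)
  have h4 : Real.exp (-w * n) *
      (cB * (C1 * (Real.exp (w * n) * (Real.exp (li / 2) * Real.exp (lj / 2))))) =
      cB * C1 * (Real.exp (li / 2) * Real.exp (lj / 2)) := by
    have : Real.exp (-w * n) * Real.exp (w * n) = 1 := by
      rw [← Real.exp_add]; simp
    calc _ = (Real.exp (-w * n) * Real.exp (w * n)) *
          (cB * C1 * (Real.exp (li / 2) * Real.exp (lj / 2))) := by ring
      _ = _ := by rw [this, one_mul]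
  calc |Lam Real.pi (E0 * n) (P * Q * Wp (b0 * n) (f0 * n)) +
        (x - Real.pi) * Bet (E0 * n) (P * Q * Wp (b0 * n) (f0 * n))|
      ≤ |Lam Real.pi (E0 * n) (P * Q * Wp (b0 * n) (f0 * n))| +
        |x - Real.pi| * |Bet (E0 * n) (P * Q * Wp (b0 * n) (f0 * n))| := by
          rw [← abs_mul]; exact abs_add_le _ _
    _ ≤ cL * (C1 * (Real.exp 0 * (Real.exp (li / 2) * Real.exp (lj / 2)))) +
        cB * C1 * (Real.exp (li / 2) * Real.exp (lj / 2)) := by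
          rw [← h4]; exact add_le_add h1 h3
    _ = (cL * C1 + cB * C1) * (Real.exp (li / 2) * Real.exp (lj / 2)) := by
          rw [Real.exp_zero]; ring
    _ ≤ C2 * (Real.exp (li / 2) * Real.exp (lj / 2)) :=
          mul_le_mul_of_nonneg_right hC2 (by positivity)

theorem det_HM_monic (x : ℝ) (b f E K : ℕ) (P : ℕ → ℝ[X]) (hP : ∀ i < K, (P i).Monic)
    (hd : ∀ i < K, (P i).natDegree = i) :
    (HM x b f E K).det =
      (Matrix.of fun i j : Fin K => Lam x E (P i * P j * Wp b f)).det := by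
  set U : Matrix (Fin K) (Fin K) ℝ := Matrix.of fun i k => (P i).coeff k with hU
  have hdet : U.det = 1 := by
    rw [Matrix.det_of_isLowerTriangular]
    · refine Finset.prod_eq_one fun i _ => ?_
      have h1 := hP i i.2
      rw [Monic, leadingCoeff, hd i i.2] at h1
      exact h1
    · intro i j hij
      have hij' : (i : ℕ) < j := hij
      rw [hU, Matrix.of_apply]
      apply coeff_eq_zero_of_natDegree_lt
      rw [hd i i.2]
      exact hij'
  have hmat : (Matrix.of fun i j : Fin K => Lam x E (P i * P j * Wp b f)) =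
      U * HM x b f E K * U.transpose := by
    ext i j
    rw [Matrix.of_apply, Matrix.mul_apply]
    simp only [Matrix.mul_apply, Matrix.transpose_apply, HM, Matrix.of_apply, hU]
    have hi := Det.DetLem_expand K (by rw [hd i i.2]; exact i.2 : (P i).natDegree < K)
    have hj := Det.DetLem_expand K (by rw [hd j j.2]; exact j.2 : (P j).natDegree < K)
    conv_lhs => rw [hi, hj]
    rw [Finset.sum_mul_sum, Finset.sum_mul, map_sum]
    simp only [Finset.sum_mul, map_sum]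
    rw [Finset.sum_comm]
    refine Finset.sum_congr rfl fun l _ => Finset.sum_congr rfl fun k _ => ?_
    rw [smul_mul_smul_comm, ← pow_add, smul_mul_assoc, map_smul, smul_eq_mul]
    ring
  rw [hmat, Matrix.det_mul, Matrix.det_mul, Matrix.det_transpose, hdet, one_mul, mul_one]

/-- determinant estimate from the rows -/
theorem detrows (S T : Set ℂ) (w cL cB C1 C2 : ℝ) (b0 f0 E0 n : ℕ) (hC1 : 0 ≤ C1)
    (hcB : 0 ≤ cB) (hC2 : cL * C1 + cB * C1 ≤ C2) (hC20 : 0 ≤ C2)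
    (hLam : ∀ (m : ℕ) (F : ℝ[X]) (M : ℝ),
      (∀ s ∈ S, ‖aeval s F‖ ≤ M * ‖s ^ 2 - 8‖ ^ m) → |Lam Real.pi m F| ≤ cL * M)
    (hBet : ∀ (m : ℕ) (F : ℝ[X]) (M : ℝ),
      (∀ s ∈ T, ‖aeval s F‖ ≤ M * ‖s ^ 2 - 8‖ ^ m) → |Bet m F| ≤ cB * M)
    (K : ℕ) (P : ℕ → ℝ[X]) (l : ℕ → ℝ)
    (hP : ∀ i < K, Good S T w b0 f0 E0 C1 n i (P i) (l i)) (x : ℝ)
    (hx : |x - Real.pi| ≤ Real.exp (-w * n)) :
    |(HM x (b0 * n) (f0 * n) (E0 * n) K).det| ≤
      (K.factorial : ℝ) * (C2 ^ K * Real.exp (∑ i ∈ Finset.range K, l i)) := by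
  rw [det_HM_monic x (b0 * n) (f0 * n) (E0 * n) K P (fun i hi => (hP i hi).1)
    (fun i hi => (hP i hi).2.1)]
  have hd := Det.abs_det_le_of_entries
    (Matrix.of fun i j : Fin K => Lam x (E0 * n) (P i * P j * Wp (b0 * n) (f0 * n)))
    (fun i => Real.sqrt C2 * Real.exp (l i / 2))
    (fun i _ => by (clear * -; positivity)) (by
      intro i j
      rw [Matrix.of_apply]
      refine (lam_est S T w cL cB C1 C2 b0 f0 E0 n hC1 hcB hC2 hLam hBet (P i) (P j) i j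
        (l i) (l j) x (hP i i.2) (hP j j.2) hx).trans (le_of_eq ?_)
      have : Real.sqrt C2 * Real.sqrt C2 = C2 := Real.mul_self_sqrt hC20
      calc C2 * (Real.exp (l i / 2) * Real.exp (l j / 2))
          = (Real.sqrt C2 * Real.sqrt C2) *
            (Real.exp (l i / 2) * Real.exp (l j / 2)) := by rw [this]
        _ = _ := by ring)
  refine hd.trans (mul_le_mul_of_nonneg_left (le_of_eq ?_) (by positivity))
  have h6 : ∀ i ∈ Finset.range K,
      (Real.sqrt C2 * Real.exp (l i / 2)) ^ 2 = C2 * Real.exp (l i) := by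
    intro i _
    rw [mul_pow, Real.sq_sqrt hC20, ← Real.exp_nat_mul]
    congr 2
    push_cast
    ring
  rw [Finset.prod_congr rfl h6, Finset.prod_mul_distrib, Finset.prod_const, Finset.card_range,
    ← Real.exp_sum]

/-- **Target T2b**: the Archimedean bound from a certificate -/
theorem arch_upper {K0 b0 f0 E0 N : ℕ} {w : ℝ} {S T : Set ℂ} (C : Cert K0 b0 f0 E0 N w S T)
    (hL : FunBound (Lam Real.pi) S) (hB : FunBound Bet T)
    (hSb : Bornology.IsBounded S) (hTb : Bornology.IsBounded T) :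
    ArchUpper K0 b0 f0 E0 w C.total := by
  intro ε hε
  obtain ⟨B1, hB1⟩ := hSb.exists_norm_le
  obtain ⟨B2, hB2⟩ := hTb.exists_norm_le
  obtain ⟨cL, hcL, hLam⟩ := hL
  obtain ⟨cB, hcB, hBet⟩ := hB
  obtain ⟨B, hB, hBS, hBT⟩ : ∃ B : ℝ, 1 ≤ B ∧ (∀ s ∈ S, ‖s‖ ≤ B) ∧
      (∀ s ∈ T, ‖s‖ ≤ B) :=
    ⟨max 1 (max B1 B2), le_max_left _ _,
      fun s hs => (hB1 s hs).trans ((le_max_left _ _).trans (le_max_right _ _)),
      fun s hs => (hB2 s hs).trans ((le_max_right _ _).trans (le_max_right _ _))⟩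
  obtain ⟨C1, hC1⟩ : ∃ C1 : ℝ, C1 = B ^ (2 * (K0 + 2)) := ⟨_, rfl⟩
  have hC1pos : 0 < C1 := by rw [hC1]; (clear * - hB; positivity)
  obtain ⟨C2, hC21, hC2⟩ : ∃ C2 : ℝ, 1 ≤ C2 ∧ cL * C1 + cB * C1 ≤ C2 :=
    ⟨max 1 (cL * C1 + cB * C1), le_max_left _ _, le_max_right _ _⟩
  obtain ⟨A1, hA1⟩ : ∃ A1 : ℝ, A1 = ∑ j ∈ Finset.range N,
    ((C.d (j + 1) : ℝ) - C.d j) * (C.L j - C.L (j + 1)) / 2 := ⟨_, rfl⟩
  filter_upwards [Det.AU_asym K0 C2 A1 (C.L N) C.total hC21 hε] with n hn κ hκ x hx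
  refine le_trans ?_ (hn κ hκ)
  obtain ⟨P, l, hP, hl⟩ := rows C B hB hBS hBT n κ hκ
  rw [← hC1] at hP
  refine (detrows S T w cL cB C1 C2 b0 f0 E0 n hC1pos.le hcB.le hC2 (by linarith only [hC21])
    hLam hBet (K0 * n + κ) P l hP x hx).trans (le_of_eq ?_)
  congr 3
  rw [hl, hA1]
  unfold Cert.total
  rw [Finset.sum_mul, Finset.sum_mul, ← Finset.sum_add_distrib]
  congr 1
  apply Finset.sum_congr rfl
  intro j _
  ring

end Vale.Agent.P021.R2.H332
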