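import Vale.Agent.P021.C3.ChordZ
import Vale.Agent.P021.R2.H636.Spec

set_option autoImplicit false
set_option linter.all false

open Polynomial

namespace Vale.Agent.P021.R2.H332

open Vale.Agent.P021.Det
open Vale.Agent.P021.R2

/-- a monic factor: `re a` has the root `a/2^10`, `cx a b` the roots `(a ± b i)/2^10` -/
inductive RFac
  | re (a : ℤ)
  | cx (a b : ℤ)

def RFac.roots : RFac → List (ℤ × ℤ)
  | .re a => [(a, 0)]
  | .cx a b => [(a, b), (a, -b)]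

noncomputable def RFac.poly : RFac → ℝ[X]
  | .re a => X - C ((a : ℝ) / 2 ^ 10)
  | .cx a b => X ^ 2 + (C (-(2 * ((a : ℝ) / 2 ^ 10))) * X +
      C (((a : ℝ) / 2 ^ 10) ^ 2 + ((b : ℝ) / 2 ^ 10) ^ 2))

def RFac.deg : RFac → ℕ
  | .re _ => 1
  | .cx _ _ => 2

theorem RFac.monic (f : RFac) : f.poly.Monic := by
  cases f with
  | re a => exact Polynomial.monic_X_sub_C _
  | cx a b =>
    unfold RFac.poly
    apply Polynomial.monic_X_pow_add
    refine lt_of_le_of_lt (Polynomial.degree_linear_le) ?_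
    norm_num

theorem RFac.natDegree (f : RFac) : f.poly.natDegree = f.deg := by
  cases f with
  | re a => exact Polynomial.natDegree_X_sub_C _
  | cx a b =>
    unfold RFac.poly RFac.deg
    refine Polynomial.natDegree_eq_of_degree_eq_some ?_
    have h : (C (-(2 * ((a : ℝ) / 2 ^ 10))) * X +
        C (((a : ℝ) / 2 ^ 10) ^ 2 + ((b : ℝ) / 2 ^ 10) ^ 2) : ℝ[X]).degree <
        (X ^ 2 : ℝ[X]).degree := by
      rw [Polynomial.degree_X_pow]
      refine lt_of_le_of_lt (Polynomial.degree_linear_le) ?_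
      norm_num
    rw [Polynomial.degree_add_eq_left_of_degree_lt h, Polynomial.degree_X_pow]

noncomputable def prodR : List RFac → List ℕ → ℝ[X]
  | f :: fs, e :: es => f.poly ^ e * prodR fs es
  | _, _ => 1

def degR : List RFac → List ℕ → ℕ
  | f :: fs, e :: es => e * f.deg + degR fs es
  | _, _ => 0

theorem prodR_monic (fs : List RFac) : ∀ es : List ℕ, (prodR fs es).Monic := by
  induction fs with
  | nil => intro es; cases es <;> exact monic_one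
  | cons f fs ih =>
    intro es
    cases es with
    | nil => exact monic_one
    | cons e es => exact (f.monic.pow e).mul (ih es)

theorem prodR_natDegree (fs : List RFac) : ∀ es : List ℕ, (prodR fs es).natDegree = degR fs es := by
  induction fs with
  | nil => intro es; cases es <;> simp only [prodR, natDegree_one, degR]
  | cons f fs ih =>
    intro es
    cases es with
    | nil => simp [prodR, degR]
    | cons e es =>
      simp only [prodR, degR]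
      rw [Polynomial.Monic.natDegree_mul (f.monic.pow e) (prodR_monic fs es),
        f.monic.natDegree_pow, f.natDegree, ih]

theorem aeval_re (a : ℤ) (s : ℂ) :
    aeval s (RFac.poly (.re a)) =
      s - (((a : ℝ) / 2 ^ 10 : ℝ) + (((0 : ℤ) : ℝ) / 2 ^ 10 : ℝ) * Complex.I) := by
  simp only [RFac.poly, map_sub, aeval_X, aeval_C, Complex.coe_algebraMap]
  push_cast
  ring

theorem aeval_cx (a b : ℤ) (s : ℂ) :
    aeval s (RFac.poly (.cx a b)) =
      (s - (((a : ℝ) / 2 ^ 10 : ℝ) + ((b : ℝ) / 2 ^ 10 : ℝ) * Complex.I)) *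
      (s - (((a : ℝ) / 2 ^ 10 : ℝ) + ((((-b : ℤ)) : ℝ) / 2 ^ 10 : ℝ) * Complex.I)) := by
  simp only [RFac.poly, map_add, map_mul, map_pow, aeval_X, aeval_C, Complex.coe_algebraMap]
  push_cast
  have hI : Complex.I ^ 2 = -1 := Complex.I_sq
  linear_combination (((b : ℂ) / 2 ^ 10) ^ 2) * hI

theorem prodQ (u v : ℤ × ℤ) (t : ℝ) (f : RFac) :
    (f.roots.map (ChN_q u v t)).prod = (2 ^ 42) ^ f.roots.length *
      ‖aeval ((1 - (t : ℂ)) * pnt u + (t : ℂ) * pnt v) f.poly‖ ^ 2 := by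
  cases f with
  | re a =>
    rw [aeval_re]
    simp only [RFac.roots, List.map_cons, List.map_nil, List.prod_cons, List.prod_nil,
      List.length_cons, List.length_nil, ChN_pt]
    ring
  | cx a b =>
    rw [aeval_cx]
    simp only [RFac.roots, List.map_cons, List.map_nil, List.prod_cons, List.prod_nil,
      List.length_cons, List.length_nil, ChN_pt, norm_mul]
    ring

/-- numerator factors -/
theorem okN_spec {u v : ℤ × ℤ} {f : RFac} {e : ℕ × ℤ × ℤ}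
    (h : DetX.okN u v f.roots (44040192 * (f.roots.length : ℤ)) e = true) {t : ℝ} (h0 : 0 ≤ t)
    (h1 : t ≤ 1) :
    ‖aeval ((1 - (t : ℂ)) * pnt u + (t : ℂ) * pnt v) f.poly‖ ^ 2 ≤
      Real.exp (((1 - t) * (e.2.1 : ℝ) + t * (e.2.2 : ℝ)) * (Real.log 2 / 2 ^ 20)) := by
  obtain ⟨G, E1, E2⟩ := e
  unfold DetX.okN at h
  obtain ⟨P, z, z', hk, hle⟩ := ChN_go _ h0 h1 _ _ _ _ h
  rw [Bool.and_eq_true, Bool.and_eq_true] at hk
  obtain ⟨hP, hz1, hz2⟩ := hk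
  have hP' := DetX.ChN_root (Nat.le_of_ble_eq_true hP)
  simp only [zle, decide_eq_true_eq] at hz1 hz2
  rw [prodQ, ChN_scale] at hle
  rw [Int.cast_zero, mul_zero, mul_zero, add_zero, zero_mul, Real.exp_zero, mul_one, Nat.cast_one,
    one_mul] at hle
  set n : ℕ := f.roots.length with hn
  have hz1' : (32 : ℝ) * G - 44040192 * n + z ≤ E1 := by
    have e7 := (Int.cast_le (R := ℝ)).2 hz1
    rw [ChN_add] at e7
    push_cast at e7
    exact e7
  have hz2' : (32 : ℝ) * G - 44040192 * n + z' ≤ E2 := by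
    have e7 := (Int.cast_le (R := ℝ)).2 hz2
    rw [ChN_add] at e7
    push_cast at e7
    exact e7
  change _ ≤ Real.exp (((1 - t) * (E1 : ℝ) + t * (E2 : ℝ)) * ChD_lam)
  set N : ℝ := ‖aeval ((1 - (t : ℂ)) * pnt u + (t : ℂ) * pnt v) f.poly‖ ^ 2 with hN
  have h2 : Real.exp (44040192 * (n : ℝ) * ChD_lam) * N ≤
      Real.exp (32 * (G : ℝ) * ChD_lam) *
        Real.exp (((1 - t) * (z : ℝ) + t * (z' : ℝ)) * ChD_lam) :=
    hle.trans (mul_le_mul_of_nonneg_right hP' (Real.exp_pos _).le)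
  have h3 := mul_le_mul_of_nonneg_left h2 (Real.exp_pos (-(44040192 * (n : ℝ) * ChD_lam))).le
  rw [← mul_assoc, ← Real.exp_add, neg_add_cancel, Real.exp_zero, one_mul, ← Real.exp_add,
    ← Real.exp_add] at h3
  refine h3.trans (Real.exp_le_exp.2 ?_)
  have g1 := mul_le_mul_of_nonneg_left hz1' (sub_nonneg.2 h1)
  have g2 := mul_le_mul_of_nonneg_left hz2' h0
  have g3 : (32 : ℝ) * G - 44040192 * n + ((1 - t) * (z : ℝ) + t * (z' : ℝ)) ≤
      (1 - t) * (E1 : ℝ) + t * (E2 : ℝ) := by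
    linarith only [g1, g2]
  have g4 := mul_le_mul_of_nonneg_right g3 ChD_lam_pos.le
  linarith only [g4]

/-! ### the denominator `s^2 - 8` -/

/-- `2^42 |u - r|^2`, `r` real in units `2^(-21)` -/
def cqr (u : ℤ × ℤ) (r : ℤ) : ℕ :=
  Nat.add (Nat.pow (2 * u.1 - r).natAbs 2) (Nat.pow (2 * u.2).natAbs 2)

/-- `2^42 |(u+v)/2 - r|^2` -/
def cqmr (u v : ℤ × ℤ) (r : ℤ) : ℕ :=
  Nat.add (Nat.pow (u.1 + v.1 - r).natAbs 2) (Nat.pow (u.2 + v.2).natAbs 2)

/-- accumulate over the two roots of the denominator -/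
def goQ (u v : ℤ × ℤ) (A : ℕ) (k : ℕ → ℤ → ℤ → Bool) : Bool :=
  frc (Nat.sub (cqr u 5931642) A) fun a1 => frc (Nat.sub (cqr v 5931642) A) fun b1 =>
  frc (cqmr u v 5931642) fun c1 =>
  frc (Nat.sub (cqr u (-5931642)) A) fun a2 => frc (Nat.sub (cqr v (-5931642)) A) fun b2 =>
  frc (cqmr u v (-5931642)) fun c2 =>
  and (and (Nat.ble 1 a1) (and (Nat.ble 1 b1) (Nat.ble 1 c1)))
    (and (and (Nat.ble 1 a2) (and (Nat.ble 1 b2) (Nat.ble 1 c2)))
      (k (Nat.mul c1 c2) (Int.add (cC c1 a1) (cC c2 a2)) (Int.add (cC c1 b1) (cC c2 b2))))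

/-- compute the entry of the denominator -/
def entQ (u v : ℤ × ℤ) (k : ℕ × ℤ × ℤ → Bool) : Bool :=
  frc (cA u v) fun A => goQ u v A fun P s t => DetX.lgL P fun g =>
    frcZ (Int.add (88080448 - 32 * (g : ℤ)) s) fun a =>
    frcZ (Int.add (88080448 - 32 * (g : ℤ)) t) fun b =>
    and (zle a 8388608) (and (zle b 8388608) (k (g, a, b)))

theorem cqr_cast (u : ℤ × ℤ) (r : ℤ) :
    ((cqr u r : ℕ) : ℝ) = (2 * (u.1 : ℝ) - r) ^ 2 + (2 * (u.2 : ℝ)) ^ 2 := by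
  unfold cqr
  rw [Nat.add_eq, Nat.cast_add, ChD_sq, ChD_sq]
  push_cast
  ring

theorem quad_norm (u v : ℤ × ℤ) (t : ℝ) :
    2 ^ 84 * ‖((1 - (t : ℂ)) * pnt u + (t : ℂ) * pnt v) ^ 2 - (5931642 / 2 ^ 21 : ℝ) ^ 2‖ ^ 2 =
    ((2 * ((1 - t) * (u.1 : ℝ) + t * v.1) - 5931642) ^ 2 +
      (2 * ((1 - t) * (u.2 : ℝ) + t * v.2)) ^ 2) *
    ((2 * ((1 - t) * (u.1 : ℝ) + t * v.1) - (-5931642)) ^ 2 +
      (2 * ((1 - t) * (u.2 : ℝ) + t * v.2)) ^ 2) := by
  set z : ℂ := (1 - (t : ℂ)) * pnt u + (t : ℂ) * pnt v with hz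
  have hre : z.re = ((1 - t) * (u.1 : ℝ) + t * v.1) / 2 ^ 20 := by
    rw [hz]
    simp only [Complex.add_re, Complex.mul_re, Complex.sub_re, Complex.one_re, Complex.ofReal_re,
      Complex.sub_im, Complex.one_im, Complex.ofReal_im, ChD_re, ChD_im]
    ring
  have him : z.im = ((1 - t) * (u.2 : ℝ) + t * v.2) / 2 ^ 20 := by
    rw [hz]
    simp only [Complex.add_im, Complex.mul_im, Complex.sub_re, Complex.one_re, Complex.ofReal_re,
      Complex.sub_im, Complex.one_im, Complex.ofReal_im, ChD_re, ChD_im]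
    ring
  have h1 : z ^ 2 - ((5931642 / 2 ^ 21 : ℝ) : ℂ) ^ 2 =
      (z - (((5931642 / 2 ^ 21 : ℝ) : ℂ) + ((0 : ℝ) : ℂ) * Complex.I)) *
      (z - (((-(5931642 / 2 ^ 21) : ℝ) : ℂ) + ((0 : ℝ) : ℂ) * Complex.I)) := by
    push_cast
    ring
  rw [h1, norm_mul, mul_pow, Chk_normSq, Chk_normSq, hre, him]
  ring

theorem quad_close (s : ℂ) (h : (1 / 16 : ℝ) ≤ ‖s ^ 2 - (5931642 / 2 ^ 21 : ℝ) ^ 2‖) :
    ‖s ^ 2 - (5931642 / 2 ^ 21 : ℝ) ^ 2‖ ^ 2 ≤ Real.exp (64 * ChD_lam) * ‖s ^ 2 - 8‖ ^ 2 := by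
  set N : ℝ := ‖s ^ 2 - ((5931642 / 2 ^ 21 : ℝ) : ℂ) ^ 2‖ with hN
  set M : ℝ := ‖s ^ 2 - 8‖ with hM
  have h1 : N ≤ M + 11 / 10000000 := by
    have e : s ^ 2 - ((5931642 / 2 ^ 21 : ℝ) : ℂ) ^ 2 = (s ^ 2 - 8) +
        ((8 - (5931642 / 2 ^ 21) ^ 2 : ℝ) : ℂ) := by
      push_cast
      ring
    rw [hN, e]
    refine (norm_add_le _ _).trans ?_
    rw [Complex.norm_real, Real.norm_eq_abs]
    have : |(8 : ℝ) - (5931642 / 2 ^ 21) ^ 2| ≤ 11 / 10000000 := by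
      rw [abs_le]; constructor <;> norm_num
    linarith only [this]
  have hM0 : 0 ≤ M := norm_nonneg _
  have h2 : N * (1 - 176 / 10000000) ≤ M := by
    nlinarith only [h1, h]
  have h3 : (1 : ℝ) ≤ Real.exp (64 * ChD_lam) * (1 - 176 / 10000000) ^ 2 := by
    have h4 := Real.add_one_le_exp (64 * ChD_lam)
    have h5 : (4 / 100000 : ℝ) ≤ 64 * ChD_lam := by
      unfold ChD_lam
      have := Real.log_two_gt_d9
      rw [mul_div_assoc', le_div_iff₀ (by norm_num)]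
      norm_num
      linarith only [this]
    have h6 : (1 + 4 / 100000 : ℝ) ≤ Real.exp (64 * ChD_lam) := by linarith only [h4, h5]
    calc (1 : ℝ) ≤ (1 + 4 / 100000) * (1 - 176 / 10000000) ^ 2 := by norm_num
      _ ≤ _ := mul_le_mul_of_nonneg_right h6 (by norm_num)
  have hN0 : 0 ≤ N := norm_nonneg _
  have h7 : (N * (1 - 176 / 10000000)) ^ 2 ≤ M ^ 2 :=
    pow_le_pow_left₀ (by (clear * - hN0; norm_num; positivity)) h2 2
  have h8 : N ^ 2 ≤ (Real.exp (64 * ChD_lam) * (1 - 176 / 10000000) ^ 2) * N ^ 2 :=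
    le_mul_of_one_le_left (by positivity) h3
  calc N ^ 2 ≤ (Real.exp (64 * ChD_lam) * (1 - 176 / 10000000) ^ 2) * N ^ 2 := h8
    _ = Real.exp (64 * ChD_lam) * (N * (1 - 176 / 10000000)) ^ 2 := by ring
    _ ≤ _ := mul_le_mul_of_nonneg_left h7 (Real.exp_pos _).le

/-- the property of an entry of the denominator -/
def OkQ (u v : ℤ × ℤ) (e : ℕ × ℤ × ℤ) : Prop :=
  ∀ t : ℝ, 0 ≤ t → t ≤ 1 → 1 ≤ Real.exp (((1 - t) * (e.2.1 : ℝ) + t * (e.2.2 : ℝ)) *
    (Real.log 2 / 2 ^ 20)) * ‖((1 - (t : ℂ)) * pnt u + (t : ℂ) * pnt v) ^ 2 - 8‖ ^ 2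

theorem entQ_spec {u v : ℤ × ℤ} {k : ℕ × ℤ × ℤ → Bool} (h : entQ u v k = true) :
    ∃ e, OkQ u v e ∧ k e = true := by
  unfold entQ goQ at h
  simp only [frc_eq, Bool.and_eq_true] at h
  obtain ⟨⟨ha1, hb1, hc1⟩, ⟨ha2, hb2, hc2⟩, h⟩ := h
  obtain ⟨G, hG, h⟩ := DetX.lgL_ex h
  simp only [frcZ_eq, Bool.and_eq_true] at h
  obtain ⟨hE1, hE2, hk⟩ := h
  rw [zle_iff] at hE1 hE2
  refine ⟨_, ?_, hk⟩
  intro t h0 h1
  have ha1' := Nat.le_of_ble_eq_true ha1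
  have hb1' := Nat.le_of_ble_eq_true hb1
  have ha2' := Nat.le_of_ble_eq_true ha2
  have hb2' := Nat.le_of_ble_eq_true hb2
  have hc1' := Nat.le_of_ble_eq_true hc1
  have hc2' := Nat.le_of_ble_eq_true hc2
  set c1 : ℕ := cqmr u v 5931642 with hc1d
  set c2 : ℕ := cqmr u v (-5931642) with hc2d
  set a1 : ℕ := Nat.sub (cqr u 5931642) (cA u v) with ha1d
  set b1 : ℕ := Nat.sub (cqr v 5931642) (cA u v) with hb1d
  set a2 : ℕ := Nat.sub (cqr u (-5931642)) (cA u v) with ha2d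
  set b2 : ℕ := Nat.sub (cqr v (-5931642)) (cA u v) with hb2d
  have k1 := ChD_one (x1 := (u.1 : ℝ)) (x2 := (u.2 : ℝ)) (y1 := (v.1 : ℝ)) (y2 := (v.2 : ℝ))
    (r := ((5931642 : ℤ) : ℝ)) (t := t) (c := c1) ha1' hb1' h0 h1
    (cqr_cast u 5931642) (cqr_cast v 5931642) (ChD_cA u v) (ChD_sub ha1') (ChD_sub hb1')
  have k2 := ChD_one (x1 := (u.1 : ℝ)) (x2 := (u.2 : ℝ)) (y1 := (v.1 : ℝ)) (y2 := (v.2 : ℝ))
    (r := ((-5931642 : ℤ) : ℝ)) (t := t) (c := c2) ha2' hb2' h0 h1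
    (cqr_cast u (-5931642)) (cqr_cast v (-5931642)) (ChD_cA u v) (ChD_sub ha2') (ChD_sub hb2')
  have hT := quad_norm u v t
  push_cast at k1 k2
  set z : ℂ := (1 - (t : ℂ)) * pnt u + (t : ℂ) * pnt v with hz
  set Q : ℝ := ‖z ^ 2 - ((5931642 / 2 ^ 21 : ℝ) : ℂ) ^ 2‖ with hQ
  have hprod : ((c1 : ℝ) * c2) ≤ 2 ^ 84 * Q ^ 2 *
      Real.exp ((((1 - t) * (cC c1 a1 : ℝ) + t * (cC c1 b1 : ℝ)) +
        ((1 - t) * (cC c2 a2 : ℝ) + t * (cC c2 b2 : ℝ))) * ChD_lam) := by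
    rw [hT, show ∀ A B : ℝ, Real.exp ((A + B) * ChD_lam) = Real.exp (A * ChD_lam) *
      Real.exp (B * ChD_lam) from fun A B => by rw [add_mul, Real.exp_add]]
    calc (c1 : ℝ) * c2 ≤ _ := mul_le_mul k1 k2 (Nat.cast_nonneg _) ((Nat.cast_nonneg _).trans k1)
      _ = _ := by ring
  have hexpn : (2 : ℝ) ^ 84 = Real.exp (88080384 * ChD_lam) := by
    have : (88080384 : ℝ) * ChD_lam = (84 : ℕ) * Real.log 2 := by
      rw [← ChD_lam_mul]; push_cast; ring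
    rw [this, Real.exp_nat_mul, Real.exp_log (by norm_num)]
  have hPG : Real.exp (32 * (G : ℝ) * ChD_lam) ≤ (c1 : ℝ) * c2 := by
    refine DetX.ChD_root hc1' hc2' ?_
    have e4 : Nat.mul (Nat.mul 1 c1) c2 = Nat.mul c1 c2 := by
      rw [Nat.mul_eq, Nat.mul_eq, Nat.mul_eq, one_mul]
    rw [e4]
    exact hG
  -- the estimate with the dyadic root
  set E1 : ℤ := Int.add (88080448 - 32 * (G : ℤ)) (Int.add (cC c1 a1) (cC c2 a2)) with hE1d
  set E2 : ℤ := Int.add (88080448 - 32 * (G : ℤ)) (Int.add (cC c1 b1) (cC c2 b2)) with hE2d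
  have e1 : (E1 : ℝ) = 88080448 - 32 * G + ((cC c1 a1 : ℝ) + (cC c2 a2 : ℝ)) := by
    rw [hE1d, ChN_add, ChN_add]; push_cast; ring
  have e2 : (E2 : ℝ) = 88080448 - 32 * G + ((cC c1 b1 : ℝ) + (cC c2 b2 : ℝ)) := by
    rw [hE2d, ChN_add, ChN_add]; push_cast; ring
  have hfin : Real.exp (32 * (G : ℝ) * ChD_lam) ≤ Real.exp (88080384 * ChD_lam) * Q ^ 2 *
      Real.exp ((((1 - t) * (cC c1 a1 : ℝ) + t * (cC c1 b1 : ℝ)) +
        ((1 - t) * (cC c2 a2 : ℝ) + t * (cC c2 b2 : ℝ))) * ChD_lam) := by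
    rw [← hexpn]
    exact hPG.trans hprod
  have hmul := mul_le_mul_of_nonneg_left hfin (Real.exp_pos (-(32 * (G : ℝ) * ChD_lam))).le
  rw [← Real.exp_add, neg_add_cancel, Real.exp_zero] at hmul
  have hkey : 1 ≤ Real.exp (((1 - t) * (E1 : ℝ) + t * (E2 : ℝ) - 64) * ChD_lam) * Q ^ 2 := by
    refine hmul.trans (le_of_eq ?_)
    rw [e1, e2]
    have e8 : Real.exp (-(32 * (G : ℝ) * ChD_lam)) * (Real.exp (88080384 * ChD_lam) * Q ^ 2 *
        Real.exp ((((1 - t) * (cC c1 a1 : ℝ) + t * (cC c1 b1 : ℝ)) +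
          ((1 - t) * (cC c2 a2 : ℝ) + t * (cC c2 b2 : ℝ))) * ChD_lam)) =
        (Real.exp (-(32 * (G : ℝ) * ChD_lam)) * Real.exp (88080384 * ChD_lam) *
        Real.exp ((((1 - t) * (cC c1 a1 : ℝ) + t * (cC c1 b1 : ℝ)) +
          ((1 - t) * (cC c2 a2 : ℝ) + t * (cC c2 b2 : ℝ))) * ChD_lam)) * Q ^ 2 := by ring
    rw [e8, ← Real.exp_add, ← Real.exp_add]
    congr 2
    ring
  -- lower bound of `Q`
  have hE1' : (E1 : ℝ) ≤ 8388608 := by exact_mod_cast hE1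
  have hE2' : (E2 : ℝ) ≤ 8388608 := by exact_mod_cast hE2
  have hQ16 : (1 / 16 : ℝ) ≤ Q := by
    have h3 : ((1 - t) * (E1 : ℝ) + t * (E2 : ℝ) - 64) ≤ 8388608 := by
      nlinarith only [mul_le_mul_of_nonneg_left hE1' (sub_nonneg.2 h1),
        mul_le_mul_of_nonneg_left hE2' h0]
    have h4 : Real.exp (((1 - t) * (E1 : ℝ) + t * (E2 : ℝ) - 64) * ChD_lam) ≤ 256 := by
      calc _ ≤ Real.exp (8388608 * ChD_lam) :=
            Real.exp_le_exp.2 (mul_le_mul_of_nonneg_right h3 ChD_lam_pos.le)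
        _ = 256 := by
          have : (8388608 : ℝ) * ChD_lam = (8 : ℕ) * Real.log 2 := by
            rw [← ChD_lam_mul]; push_cast; ring
          rw [this, Real.exp_nat_mul, Real.exp_log (by norm_num)]
          norm_num
    have h5 : 1 ≤ 256 * Q ^ 2 := hkey.trans (mul_le_mul_of_nonneg_right h4 (by positivity))
    have hQ0 : 0 ≤ Q := norm_nonneg _
    nlinarith only [h5, hQ0]
  have hcl := quad_close z hQ16
  change 1 ≤ Real.exp (((1 - t) * (E1 : ℝ) + t * (E2 : ℝ)) * ChD_lam) * _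
  calc (1 : ℝ) ≤ Real.exp (((1 - t) * (E1 : ℝ) + t * (E2 : ℝ) - 64) * ChD_lam) * Q ^ 2 := hkey
    _ ≤ Real.exp (((1 - t) * (E1 : ℝ) + t * (E2 : ℝ) - 64) * ChD_lam) *
        (Real.exp (64 * ChD_lam) * ‖z ^ 2 - 8‖ ^ 2) :=
      mul_le_mul_of_nonneg_left hcl (Real.exp_pos _).le
    _ = _ := by
      rw [← mul_assoc, ← Real.exp_add]
      congr 2
      ring

/-! ### the checker -/

/-- check a list of factors against a list of entries -/
def okL (u v : ℤ × ℤ) : List RFac → List (ℕ × ℤ × ℤ) → Bool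
  | [], _ => true
  | _ :: _, [] => false
  | f :: fs, e :: es =>
    and (DetX.okN u v f.roots (44040192 * (f.roots.length : ℤ)) e) (okL u v fs es)

theorem okL_cons (u v : ℤ × ℤ) (f : RFac) (fs : List RFac) (e : ℕ × ℤ × ℤ)
    (es : List (ℕ × ℤ × ℤ)) : okL u v (f :: fs) (e :: es) =
    and (DetX.okN u v f.roots (44040192 * (f.roots.length : ℤ)) e) (okL u v fs es) := rfl

theorem okL_spec {u v : ℤ × ℤ} {t : ℝ} (h0 : 0 ≤ t) (h1 : t ≤ 1) (fs : List RFac) :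
    ∀ (T : List (ℕ × ℤ × ℤ)) (es : List ℕ), okL u v fs T = true → es.length ≤ fs.length →
    ‖aeval ((1 - (t : ℂ)) * pnt u + (t : ℂ) * pnt v) (prodR fs es)‖ ^ 2 ≤
      Real.exp (((1 - t) * (dot1 es T 0 : ℝ) + t * (dot2 es T 0 : ℝ)) * cu) := by
  induction fs with
  | nil =>
    intro T es _ hl
    have : es = [] := by
      cases es with
      | nil => rfl
      | cons e es => simp at hl
    subst this
    cases T <;> simp [prodR, dot1, dot2]
  | cons f fs ih =>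
    intro T es hT hl
    cases es with
    | nil => cases T <;> simp [prodR, dot1, dot2]
    | cons e es =>
      cases T with
      | nil => simp [okL] at hT
      | cons a T =>
        simp only [okL, Bool.and_eq_true] at hT
        obtain ⟨hN, hT⟩ := hT
        have hf := okN_spec hN h0 h1
        have hr := ih T es hT (by simpa using hl)
        rw [dot1_cons, dot2_cons]
        simp only [prodR]
        rw [map_mul, map_pow, norm_mul, norm_pow, mul_pow, ← pow_mul, mul_comm e 2, pow_mul]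
        have e1 : ((1 - t) * ((((e : ℤ) * a.2.1 + dot1 es T 0 : ℤ)) : ℝ) +
            t * ((((e : ℤ) * a.2.2 + dot2 es T 0 : ℤ)) : ℝ)) * cu =
            (e : ℝ) * (((1 - t) * (a.2.1 : ℝ) + t * (a.2.2 : ℝ)) * (Real.log 2 / 2 ^ 20)) +
            ((1 - t) * (dot1 es T 0 : ℝ) + t * (dot2 es T 0 : ℝ)) * cu := by
          unfold cu
          push_cast
          ring
        rw [e1, Real.exp_add, Real.exp_nat_mul]
        exact mul_le_mul (pow_le_pow_left₀ (by positivity) hf e) hr (by positivity)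
          (by positivity)

/-- what is known about one subsegment -/
def SubOK (fs : List RFac) (b f E : ℕ) (lev : List (List ℕ × ℤ)) (ex : ℤ) (u v : ℤ × ℤ) : Prop :=
  ∃ (T : List (ℕ × ℤ × ℤ)) (tB tF tQ : ℕ × ℤ × ℤ), okL u v fs T = true ∧
    DetX.okN u v (RFac.roots (.re 2048)) 44040192 tB = true ∧
    DetX.okN u v (RFac.roots (.re 3072)) 44040192 tF = true ∧ OkQ u v tQ ∧
    okLev T ((b : ℤ) * tB.2.1 + (f : ℤ) * tF.2.1 + (E : ℤ) * tQ.2.1 - ex)
      ((b : ℤ) * tB.2.2 + (f : ℤ) * tF.2.2 + (E : ℤ) * tQ.2.2 - ex) lev = true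

theorem SubOK.spec {fs : List RFac} {b f E : ℕ} {lev : List (List ℕ × ℤ)} {ex : ℤ} {u v : ℤ × ℤ}
    (h : SubOK fs b f E lev ex u v) {t : ℝ} (h0 : 0 ≤ t) (h1 : t ≤ 1)
    (L : List ℕ × ℤ) (hL : L ∈ lev) (hlen : L.1.length ≤ fs.length) :
    ‖aeval ((1 - (t : ℂ)) * pnt u + (t : ℂ) * pnt v) (prodR fs L.1)‖ ^ 2 *
      ‖aeval ((1 - (t : ℂ)) * pnt u + (t : ℂ) * pnt v) (H636.Wp (2 * b) (2 * f))‖ ≤
      Real.exp (((L.2 : ℝ) + ex) * cu) *
        ‖((1 - (t : ℂ)) * pnt u + (t : ℂ) * pnt v) ^ 2 - 8‖ ^ (2 * E) := by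
  obtain ⟨T, tB, tF, tQ, hT, hB, hF, hQ, hlev⟩ := h
  set s : ℂ := (1 - (t : ℂ)) * pnt u + (t : ℂ) * pnt v with hs
  have gT := okL_spec h0 h1 fs T L.1 hT hlen
  have gB := okN_spec (f := .re 2048) (by simpa [RFac.roots] using hB) h0 h1
  have gF := okN_spec (f := .re 3072) (by simpa [RFac.roots] using hF) h0 h1
  have gD := hQ t h0 h1
  rw [← hs] at gT gB gF gD
  have eB : RFac.poly (.re 2048) = X - C 2 := by
    simp only [RFac.poly]; norm_num
  have eF : RFac.poly (.re 3072) = X - C 3 := by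
    simp only [RFac.poly]; norm_num
  rw [eB] at gB
  rw [eF] at gF
  obtain ⟨l1, l2⟩ := okLev_spec hlev L hL
  rw [dot1_add] at l1
  rw [dot2_add] at l2
  have hW : ‖aeval s (H636.Wp (2 * b) (2 * f))‖ =
      (‖aeval s (X - C 2 : ℝ[X])‖ ^ 2) ^ b * (‖aeval s (X - C 3 : ℝ[X])‖ ^ 2) ^ f := by
    unfold H636.Wp
    rw [map_mul, map_pow, map_pow, norm_mul, norm_pow, norm_pow, pow_mul, pow_mul]
  rw [hW]
  have l1' : ((dot1 L.1 T 0 : ℤ) : ℝ) + (b * (tB.2.1 : ℝ) + f * (tF.2.1 : ℝ) +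
      E * (tQ.2.1 : ℝ)) ≤ L.2 + ex := by
    have := (Int.cast_le (R := ℝ)).mpr l1
    push_cast at this
    linarith only [this]
  have l2' : ((dot2 L.1 T 0 : ℤ) : ℝ) + (b * (tB.2.2 : ℝ) + f * (tF.2.2 : ℝ) +
      E * (tQ.2.2 : ℝ)) ≤ L.2 + ex := by
    have := (Int.cast_le (R := ℝ)).mpr l2
    push_cast at this
    linarith only [this]
  have hD' : 1 ≤ Real.exp ((E : ℝ) * (((1 - t) * (tQ.2.1 : ℝ) + t * (tQ.2.2 : ℝ)) *
      (Real.log 2 / 2 ^ 20))) * ‖s ^ 2 - 8‖ ^ (2 * E) := by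
    rw [Real.exp_nat_mul, pow_mul, ← mul_pow]
    exact one_le_pow₀ gD
  calc ‖aeval s (prodR fs L.1)‖ ^ 2 * ((‖aeval s (X - C 2 : ℝ[X])‖ ^ 2) ^ b *
        (‖aeval s (X - C 3 : ℝ[X])‖ ^ 2) ^ f)
      ≤ Real.exp (((1 - t) * (dot1 L.1 T 0 : ℝ) + t * (dot2 L.1 T 0 : ℝ)) * cu) *
        (Real.exp (((1 - t) * (tB.2.1 : ℝ) + t * (tB.2.2 : ℝ)) * (Real.log 2 / 2 ^ 20)) ^ b *
        Real.exp (((1 - t) * (tF.2.1 : ℝ) + t * (tF.2.2 : ℝ)) *
          (Real.log 2 / 2 ^ 20)) ^ f) := by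
        gcongr
    _ = Real.exp ((((1 - t) * (dot1 L.1 T 0 : ℝ) + t * (dot2 L.1 T 0 : ℝ)) +
          b * ((1 - t) * (tB.2.1 : ℝ) + t * (tB.2.2 : ℝ)) +
          f * ((1 - t) * (tF.2.1 : ℝ) + t * (tF.2.2 : ℝ))) * cu) * 1 := by
        rw [← Real.exp_nat_mul, ← Real.exp_nat_mul, ← Real.exp_add, ← Real.exp_add, mul_one]
        congr 1
        unfold cu
        ring
    _ ≤ Real.exp ((((1 - t) * (dot1 L.1 T 0 : ℝ) + t * (dot2 L.1 T 0 : ℝ)) +
          b * ((1 - t) * (tB.2.1 : ℝ) + t * (tB.2.2 : ℝ)) +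
          f * ((1 - t) * (tF.2.1 : ℝ) + t * (tF.2.2 : ℝ))) * cu) *
          (Real.exp ((E : ℝ) * (((1 - t) * (tQ.2.1 : ℝ) + t * (tQ.2.2 : ℝ)) *
            (Real.log 2 / 2 ^ 20))) * ‖s ^ 2 - 8‖ ^ (2 * E)) :=
        mul_le_mul_of_nonneg_left hD' (Real.exp_pos _).le
    _ = Real.exp (((1 - t) * ((dot1 L.1 T 0 : ℝ) + (b * (tB.2.1 : ℝ) + f * (tF.2.1 : ℝ) +
          E * (tQ.2.1 : ℝ))) + t * ((dot2 L.1 T 0 : ℝ) + (b * (tB.2.2 : ℝ) +
          f * (tF.2.2 : ℝ) + E * (tQ.2.2 : ℝ)))) * cu) * ‖s ^ 2 - 8‖ ^ (2 * E) := by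
        rw [← mul_assoc, ← Real.exp_add]
        congr 2
        unfold cu
        ring
    _ ≤ _ := by
        refine mul_le_mul_of_nonneg_right (Real.exp_le_exp.mpr ?_) (by positivity)
        refine mul_le_mul_of_nonneg_right ?_ cu_pos.le
        nlinarith only [l1', l2', h0, h1]

/-- the property to be shown at the point `s` -/
def GoodR (fs : List RFac) (b f E : ℕ) (lev : List (List ℕ × ℤ)) (ex : ℤ) (s : ℂ) : Prop :=
  ∀ L ∈ lev, L.1.length ≤ fs.length →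
    ‖aeval s (prodR fs L.1)‖ ^ 2 * ‖aeval s (H636.Wp (2 * b) (2 * f))‖ ≤
      Real.exp (((L.2 : ℝ) + ex) * cu) * ‖s ^ 2 - 8‖ ^ (2 * E)

/-- all subsegments -/
def SegOK (fs : List RFac) (b f E : ℕ) (lev : List (List ℕ × ℤ)) (ex : ℤ) (U V : ℤ × ℤ) :
    ℕ → List ℕ → Prop
  | _, [] => True
  | i, j :: l => SubOK fs b f E lev ex (cpt U V i) (cpt U V j) ∧ SegOK fs b f E lev ex U V j l

theorem SegOK.spec {fs : List RFac} {b f E : ℕ} {lev : List (List ℕ × ℤ)} {ex : ℤ}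
    {U V : ℤ × ℤ} : ∀ (l : List ℕ) (i : ℕ), SegOK fs b f E lev ex U V i l →
    ∀ y : ℝ, (i : ℝ) < y → y ≤ lastN i l →
      GoodR fs b f E lev ex (pnt10 U + (pnt10 V - pnt10 U) * ((y : ℂ) / 1024)) := by
  intro l
  induction l with
  | nil =>
    intro i _ y h1 h2
    simp only [lastN] at h2
    linarith only [h1, h2]
  | cons j l ih =>
    intro i h y h1 h2
    simp only [lastN] at h2
    rcases le_or_gt y j with hy | hy
    · intro L hL hlen
      have hij : (0 : ℝ) < (j : ℝ) - i := by linarith only [h1, hy]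
      have ht0 : 0 ≤ (y - i) / ((j : ℝ) - i) := div_nonneg (by linarith only [h1]) hij.le
      have ht1 : (y - i) / ((j : ℝ) - i) ≤ 1 := by
        rw [div_le_one hij]
        linarith only [hy]
      have key := h.1.spec ht0 ht1 L hL hlen
      have e : (1 - (((y - i) / ((j : ℝ) - i) : ℝ) : ℂ)) * pnt (cpt U V i) +
          (((y - i) / ((j : ℝ) - i) : ℝ) : ℂ) * pnt (cpt U V j) =
          pnt10 U + (pnt10 V - pnt10 U) * ((y : ℂ) / 1024) := by
        rw [pnt_cpt, pnt_cpt]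
        have hij' : ((j : ℂ) - i) ≠ 0 := by
          have : (((j : ℝ) - i : ℝ) : ℂ) ≠ 0 := by exact_mod_cast hij.ne'
          simpa using this
        push_cast
        field_simp
        ring
      rw [e] at key
      exact key
    · exact ih j h.2 y hy h2

theorem SegOK.first {fs : List RFac} {b f E : ℕ} {lev : List (List ℕ × ℤ)} {ex : ℤ}
    {U V : ℤ × ℤ} {l : List ℕ} (hl : l ≠ [])
    (h : SegOK fs b f E lev ex U V 0 l) : GoodR fs b f E lev ex (pnt10 U) := by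
  cases l with
  | nil => exact absurd rfl hl
  | cons j l =>
    intro L hL hlen
    have key := h.1.spec le_rfl zero_le_one L hL hlen
    simpa [pnt_cpt] using key

theorem SegOK.segment {fs : List RFac} {b f E : ℕ} {lev : List (List ℕ × ℤ)} {ex : ℤ}
    {U V : ℤ × ℤ} {l : List ℕ} (hl : l ≠ []) (hlast : lastN 0 l = 1024)
    (h : SegOK fs b f E lev ex U V 0 l) :
    ∀ s ∈ segment ℝ (pnt10 U) (pnt10 V), GoodR fs b f E lev ex s := by
  intro s hs
  rw [segment_eq_image'] at hs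
  obtain ⟨θ, ⟨h0, h1⟩, rfl⟩ := hs
  rcases h0.eq_or_lt with h0 | h0
  · subst h0
    simpa using SegOK.first hl h
  · have key := SegOK.spec l 0 h (1024 * θ) (by push_cast; linarith)
      (by rw [hlast]; push_cast; linarith)
    have e : pnt10 U + (pnt10 V - pnt10 U) * (((1024 * θ : ℝ) : ℂ) / 1024) =
        pnt10 U + θ • (pnt10 V - pnt10 U) := by
      rw [Complex.real_smul]
      push_cast
      ring
    rw [e] at key
    exact key

/-- check of one subsegment -/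
noncomputable def runSub (rs : List (List (ℕ × ℕ) × ℕ)) (b f E : ℕ) (pk Ms : List ℕ) (ones : ℕ)
    (ex : ℤ) (u v : ℤ × ℤ) : Bool :=
  frc (DetX.cn (2 * u.1)) fun U1 => frc (DetX.cn (2 * u.2)) fun U2 =>
  frc (DetX.cn (2 * v.1)) fun V1 => frc (DetX.cn (2 * v.2)) fun V2 =>
  frc (DetX.cn (u.1 + v.1)) fun M1 => frc (DetX.cn (u.2 + v.2)) fun M2 =>
  DetX.runLM U1 U2 V1 V2 M1 M2 rs fun T' =>
  DetX.entN u v (RFac.roots (.re 2048)) 44040192 fun tB =>
  DetX.entN u v (RFac.roots (.re 3072)) 44040192 fun tF =>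
  entQ u v fun tQ =>
  frc (Int.toNat ((b : ℤ) * tB.2.1 + (f : ℤ) * tF.2.1 + (E : ℤ) * tQ.2.1 - ex +
    1152921504606846976)) fun c1 =>
  frc (Int.toNat ((b : ℤ) * tB.2.2 + (f : ℤ) * tF.2.2 + (E : ℤ) * tQ.2.2 - ex +
    1152921504606846976)) fun c2 =>
  and (Nat.ble c1 4611686018427387904) (and (Nat.ble c2 4611686018427387904)
    (DetX.dotK pk T' (Nat.mul c1 ones) (Nat.mul c2 ones)
      fun s t => and (DetX.chkPk Ms s) (DetX.chkPk Ms t)))

/-- check of a segment -/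
noncomputable def runSegm (rs : List (List (ℕ × ℕ) × ℕ)) (b f E : ℕ) (pk Ms : List ℕ) (ones : ℕ)
    (ex : ℤ) (U V : ℤ × ℤ) (i : ℕ) (l : List ℕ) : Bool :=
  List.rec (motive := fun _ => ℕ → Bool) (fun _ => true)
    (fun j _ ih i => and (frcP (cpt U V i) fun u => frcP (cpt U V j) fun v =>
      runSub rs b f E pk Ms ones ex u v) (ih j)) l i

/-- natural data of a factor -/
def facn (f : RFac) : List (ℕ × ℕ) × ℕ :=
  (f.roots.map DetX.rtn, 44040192 * f.roots.length + 2097152 * f.roots.length)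

/-- the coordinates of the roots are not too small -/
def facOK (f : RFac) : Bool :=
  f.roots.all fun r => decide (-67108864 ≤ 2048 * r.1) && decide (-67108864 ≤ 2048 * r.2)

theorem entM_spec {u v : ℤ × ℤ} (hu1 : -67108864 ≤ 2 * u.1) (hu2 : -67108864 ≤ 2 * u.2)
    (hv1 : -67108864 ≤ 2 * v.1) (hv2 : -67108864 ≤ 2 * v.2) {f : RFac} (hf : facOK f = true)
    {k : ℕ × ℕ → Bool}
    (h : DetX.entM (DetX.cn (2 * u.1)) (DetX.cn (2 * u.2)) (DetX.cn (2 * v.1))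
      (DetX.cn (2 * v.2)) (DetX.cn (u.1 + v.1))
      (DetX.cn (u.2 + v.2)) (facn f).1 (facn f).2 k = true) :
    ∃ (e : ℕ × ℤ × ℤ) (p : ℕ × ℕ),
      DetX.okN u v f.roots (44040192 * (f.roots.length : ℤ)) e = true ∧
      DetX.RelT e p ∧ p.1 ≤ 8589934592 ∧ p.2 ≤ 8589934592 ∧ k p = true := by
  unfold DetX.entM facn at h
  simp only at h
  have hl : ∀ r ∈ f.roots, -67108864 ≤ 2048 * r.1 ∧ -67108864 ≤ 2048 * r.2 := by
    intro r hr
    have := List.all_eq_true.mp hf r hr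
    simpa using this
  obtain ⟨P', s', t', sn', tn', hk, hg, h1, h2⟩ := DetX.goM_spec hu1 hu2 hv1 hv2 _ f.roots hl
    1 0 0 0 0 0 (by simp) (by simp) h
  obtain ⟨G, hG, hk⟩ := DetX.lgU_ex hk
  simp only [frc_eq, Bool.and_eq_true, Nat.ble_eq] at hk
  obtain ⟨ha, hb, hk⟩ := hk
  refine ⟨(G, 32 * (G : ℤ) - 44040192 * (f.roots.length : ℤ) + s',
    32 * (G : ℤ) - 44040192 * (f.roots.length : ℤ) + t'), _, ?_, ⟨?_, ?_⟩, ha, hb, hk⟩
  · unfold DetX.okN
    rw [hg]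
    simp only [Bool.and_eq_true, zle_iff]
    exact ⟨Nat.ble_eq.mpr hG, le_rfl, le_rfl⟩
  · simp only [Nat.sub_eq, Nat.add_eq, Nat.mul_eq]
    simp only [zero_add] at h1
    omega
  · simp only [Nat.sub_eq, Nat.add_eq, Nat.mul_eq]
    simp only [zero_add] at h2
    omega

theorem runLM_spec {u v : ℤ × ℤ} (hu1 : -67108864 ≤ 2 * u.1) (hu2 : -67108864 ≤ 2 * u.2)
    (hv1 : -67108864 ≤ 2 * v.1) (hv2 : -67108864 ≤ 2 * v.2) (fs : List RFac) :
    (∀ f ∈ fs, facOK f = true) → ∀ {k : List (ℕ × ℕ) → Bool},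
    DetX.runLM (DetX.cn (2 * u.1)) (DetX.cn (2 * u.2)) (DetX.cn (2 * v.1)) (DetX.cn (2 * v.2))
      (DetX.cn (u.1 + v.1)) (DetX.cn (u.2 + v.2)) (fs.map facn) k = true →
    ∃ T T', okL u v fs T = true ∧ List.Forall₂ DetX.RelT T T' ∧ T.length = fs.length ∧
      (∀ p ∈ T', p.1 ≤ 8589934592 ∧ p.2 ≤ 8589934592) ∧ k T' = true := by
  induction fs with
  | nil =>
    intro _ k h
    exact ⟨[], [], rfl, List.Forall₂.nil, rfl, by simp, h⟩
  | cons f fs ih =>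
    intro hf k h
    rw [List.map_cons, DetX.runLM_cons] at h
    obtain ⟨e, p, he, hep, hp1, hp2, h⟩ := entM_spec hu1 hu2 hv1 hv2 (hf f (by simp)) h
    obtain ⟨T, T', hT, hR, hlT, hb, hk⟩ := ih (fun g hg => hf g (by simp [hg])) h
    refine ⟨e :: T, p :: T', ?_, List.Forall₂.cons hep hR, by simp [hlT], ?_, hk⟩
    · rw [okL_cons, he, hT, Bool.and_true]
    · intro q hq
      rcases List.mem_cons.mp hq with rfl | hq
      · exact ⟨hp1, hp2⟩
      · exact hb q hq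

/-- consistency of the data -/
structure DatOK (fs : List RFac) (lev : List (List ℕ × ℤ)) (rs : List (List (ℕ × ℕ) × ℕ))
    (pk Ms : List ℕ) (ones : ℕ) : Prop where
  hrs : rs = fs.map facn
  hfs : fs.all facOK = true
  hpk : pk = DetX.colPack fs.length lev
  hones : ones = DetX.onesPack lev
  hcv : DetX.cvOKM fs.length lev Ms = true

theorem runSub_spec {fs : List RFac} {lev : List (List ℕ × ℤ)} {rs : List (List (ℕ × ℕ) × ℕ)}
    {pk Ms : List ℕ} {ones : ℕ} (D : DatOK fs lev rs pk Ms ones)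
    {b f E : ℕ} {ex : ℤ} {u v : ℤ × ℤ} (hu1 : -67108864 ≤ 2 * u.1) (hu2 : -67108864 ≤ 2 * u.2)
    (hv1 : -67108864 ≤ 2 * v.1) (hv2 : -67108864 ≤ 2 * v.2)
    (h : runSub rs b f E pk Ms ones ex u v = true) :
    SubOK fs b f E lev ex u v := by
  unfold runSub at h
  simp only [frc_eq] at h
  rw [D.hrs] at h
  obtain ⟨T, T', hT, hR, hlT, hb, h⟩ := runLM_spec hu1 hu2 hv1 hv2 fs
    (fun f hf => List.all_eq_true.mp D.hfs f hf) h
  obtain ⟨tB, hB, h⟩ := DetX.entN_spec h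
  obtain ⟨tF, hF, h⟩ := DetX.entN_spec h
  obtain ⟨tQ, hQ, h⟩ := entQ_spec h
  simp only [Bool.and_eq_true, Nat.ble_eq] at h
  obtain ⟨hc1, hc2, h⟩ := h
  rw [DetX.dotK_eq, Bool.and_eq_true, D.hpk, D.hones, ← hlT] at h
  refine ⟨T, tB, tF, tQ, hT, hB, hF, hQ, ?_⟩
  exact DetX.okLevM_spec hR hb (Int.self_le_toNat _) (Int.self_le_toNat _) hc1 hc2 lev Ms
    (by rw [hlT]; exact D.hcv) h.1 h.2

theorem runSegm_cons (rs : List (List (ℕ × ℕ) × ℕ)) (b f E : ℕ) (pk Ms : List ℕ) (ones : ℕ)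
    (ex : ℤ) (U V : ℤ × ℤ) (i j : ℕ) (l : List ℕ) :
    runSegm rs b f E pk Ms ones ex U V i (j :: l) =
      and (frcP (cpt U V i) fun u => frcP (cpt U V j) fun v =>
      runSub rs b f E pk Ms ones ex u v) (runSegm rs b f E pk Ms ones ex U V j l) := rfl

theorem runSegm_spec {fs : List RFac} {lev : List (List ℕ × ℤ)} {rs : List (List (ℕ × ℕ) × ℕ)}
    {pk Ms : List ℕ} {ones : ℕ} (D : DatOK fs lev rs pk Ms ones) {b f E : ℕ} {ex : ℤ}
    {U V : ℤ × ℤ} (hU1 : -32768 ≤ U.1) (hU2 : -32768 ≤ U.2) (hV1 : -32768 ≤ V.1)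
    (hV2 : -32768 ≤ V.2) : ∀ (l : List ℕ) (i : ℕ), i ≤ 1024 → (∀ j ∈ l, j ≤ 1024) →
    runSegm rs b f E pk Ms ones ex U V i l = true →
    SegOK fs b f E lev ex U V i l := by
  intro l
  induction l with
  | nil => intro i _ _ _; trivial
  | cons j l ih =>
    intro i hi hl h
    rw [runSegm_cons] at h
    simp only [Bool.and_eq_true, frcP_eq] at h
    have hj : j ≤ 1024 := hl j (by simp)
    have hS := runSub_spec D (DetX.cpt_ge hU1 hU2 hV1 hV2 hi).1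
      (DetX.cpt_ge hU1 hU2 hV1 hV2 hi).2
      (DetX.cpt_ge hU1 hU2 hV1 hV2 hj).1 (DetX.cpt_ge hU1 hU2 hV1 hV2 hj).2 h.1
    exact ⟨hS, ih j hj (fun x hx => hl x (by simp [hx])) h.2⟩

/-- **the checker**: if the data are consistent and the run on `[U,V]` succeeds, all level
estimates hold on the segment -/
theorem runSegm_segment {fs : List RFac} {lev : List (List ℕ × ℤ)}
    {rs : List (List (ℕ × ℕ) × ℕ)} {pk Ms : List ℕ} {ones : ℕ} (D : DatOK fs lev rs pk Ms ones)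
    {b f E : ℕ} {ex : ℤ} {U V : ℤ × ℤ} (hU1 : -32768 ≤ U.1) (hU2 : -32768 ≤ U.2)
    (hV1 : -32768 ≤ V.1) (hV2 : -32768 ≤ V.2) {l : List ℕ} (hl : l ≠ [])
    (hle : (l.all fun j => decide (j ≤ 1024)) = true) (hlast : lastN 0 l = 1024)
    (h : runSegm rs b f E pk Ms ones ex U V 0 l = true) :
    ∀ s ∈ segment ℝ (pnt10 U) (pnt10 V), GoodR fs b f E lev ex s := by
  have h1 := runSegm_spec D hU1 hU2 hV1 hV2 l 0 (by norm_num)
    (fun j hj => by simpa using List.all_eq_true.mp hle j hj) h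
  exact SegOK.segment hl hlast h1

theorem runSegm_app {rs : List (List (ℕ × ℕ) × ℕ)} {b f E : ℕ} {pk Ms : List ℕ} {ones : ℕ}
    {ex : ℤ} {U V : ℤ × ℤ} {j : ℕ} {l2 : List ℕ} : ∀ {l1 : List ℕ} {i : ℕ},
    runSegm rs b f E pk Ms ones ex U V i l1 = true → lastN i l1 = j →
    runSegm rs b f E pk Ms ones ex U V j l2 = true →
    runSegm rs b f E pk Ms ones ex U V i (l1 ++ l2) = true := by
  intro l1
  induction l1 with
  | nil =>
    intro i _ hj h
    simp only [lastN] at hj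
    subst hj
    exact h
  | cons j l ih =>
    intro i h1 hj h2
    rw [runSegm_cons] at h1
    simp only [Bool.and_eq_true] at h1
    simp only [lastN] at hj
    rw [List.cons_append, runSegm_cons]
    simp only [Bool.and_eq_true]
    exact ⟨h1.1, ih h1.2 hj h2⟩

end Vale.Agent.P021.R2.H332
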